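import Vale.Agent.P154.DE.MonoK
import Vale.Agent.P154.GDP.Main
import Vale.Agent.P154.Recon

/-!
# Three states, negative parameter: assembling the pieces
-/

namespace Vale.Agent.P154.Neg

open Finset Filter Topology Vale.Agent.P154 Vale.Agent.P154.Up

/-- average of the second moment on the Poisson tree -/
noncomputable def pM (κ d : ℝ) (n : ℕ) : ℝ :=
  ∑' T : GTree n, poissonWeight d T * Mtree 3 (-κ) T

theorem kap_facts {κ : ℝ} (h0 : 0 ≤ κ) (h : κ ≤ 1 / 2) :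
    -1 / (((3 : ℕ) : ℝ) - 1) ≤ -κ ∧ -κ ≤ 1 := by
  constructor
  · push_cast
    rw [div_le_iff₀ (by norm_num)]
    linarith
  · linarith

theorem small_of_tendsto {a x : ℕ → ℝ} (ha0 : ∀ n, 0 ≤ a n)
    (ha : ∀ ε : ℝ, 0 < ε → ∀ n, a n ≤ ε / 4 + 2 / (4 * ε) * x n) (hx : Tendsto x atTop (𝓝 0)) :
    Nonreconstruction a := by
  unfold Nonreconstruction
  rw [Metric.tendsto_atTop]
  intro ε hε
  have h3 : Tendsto (fun n => ε / 4 + 2 / (4 * ε) * x n) atTop (𝓝 (ε / 4)) := by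
    have := (hx.const_mul (2 / (4 * ε))).const_add (ε / 4)
    rwa [mul_zero, add_zero] at this
  have h4 := h3.eventually_lt_const (show ε / 4 < ε by linarith)
  obtain ⟨N, hN⟩ := eventually_atTop.1 h4
  refine ⟨N, fun n hn => ?_⟩
  rw [Real.dist_eq, sub_zero, abs_of_nonneg (ha0 n)]
  exact (ha ε hε n).trans_lt (hN n hn)

theorem nonrec_dary {κ : ℝ} (h0 : 0 ≤ κ) (h : κ ≤ 1 / 2) (d : ℕ)
    (hx : Tendsto (fun n => Mtree 3 (-κ) (dary d n)) atTop (𝓝 0)) :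
    Nonreconstruction (aDary 3 (-κ) d) := by
  obtain ⟨h1, h2⟩ := kap_facts h0 h
  refine small_of_tendsto (fun n => adv_nonneg (by norm_num) h1 h2 _) (fun ε hε n => ?_) hx
  refine (adv_le (by norm_num) h1 h2 (dary d n) hε).trans (le_of_eq ?_)
  norm_num

theorem nonrec_poisson {κ : ℝ} (h0 : 0 ≤ κ) (h : κ ≤ 1 / 2) {d : ℝ} (hd : 0 ≤ d)
    (hx : Tendsto (pM κ d) atTop (𝓝 0)) :
    Nonreconstruction (aPoisson 3 (-κ) d) := by
  obtain ⟨h1, h2⟩ := kap_facts h0 h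
  have hy0 : ∀ {m : ℕ} (T : GTree m), 0 ≤ Mtree 3 (-κ) T := fun T =>
    Mtree_nonneg (by norm_num) h1 h2 T
  have hy1 : ∀ {m : ℕ} (T : GTree m), Mtree 3 (-κ) T ≤ 1 := fun T =>
    Mtree_le_one (by norm_num) h1 h2 T
  refine small_of_tendsto
    (fun n => tsum_nonneg fun T => mul_nonneg (poissonWeight_nonneg hd T)
      (adv_nonneg (by norm_num) h1 h2 T)) (fun ε hε n => ?_) hx
  have hs1 : Summable (fun T : GTree n => poissonWeight d T * Mtree 3 (-κ) T) :=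
    summable_weight hd n hy0 hy1
  have hs2 : Summable (fun T : GTree n => ε / 4 * poissonWeight d T +
      2 / (4 * ε) * (poissonWeight d T * Mtree 3 (-κ) T)) :=
    ((poissonWeight_summable hd n).mul_left _).add (hs1.mul_left _)
  have hle : ∀ T : GTree n, poissonWeight d T * adv 3 (-κ) T ≤ ε / 4 * poissonWeight d T +
      2 / (4 * ε) * (poissonWeight d T * Mtree 3 (-κ) T) := by
    intro T
    have h3 := mul_le_mul_of_nonneg_left (adv_le (by norm_num) h1 h2 T hε)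
      (poissonWeight_nonneg hd T)
    refine h3.trans (le_of_eq ?_)
    push_cast
    ring
  have hs3 : Summable (fun T : GTree n => poissonWeight d T * adv 3 (-κ) T) :=
    Summable.of_nonneg_of_le
      (fun T => mul_nonneg (poissonWeight_nonneg hd T) (adv_nonneg (by norm_num) h1 h2 T)) hle hs2
  unfold aPoisson pM
  refine (hs3.tsum_le_tsum hle hs2).trans (le_of_eq ?_)
  rw [((poissonWeight_summable hd n).mul_left _).tsum_add (hs1.mul_left _), tsum_mul_left,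
    tsum_mul_left, poissonWeight_tsum hd n, mul_one]

theorem pM_mono {κ κ0 : ℝ} (h0 : 0 ≤ κ) (h : κ ≤ κ0) (hh : κ0 ≤ 1 / 2) {d : ℝ} (hd : 0 ≤ d)
    (n : ℕ) : pM κ d n ≤ pM κ0 d n := by
  obtain ⟨h1, h2⟩ := kap_facts h0 (h.trans hh)
  obtain ⟨h3, h4⟩ := kap_facts (h0.trans h) hh
  unfold pM
  refine Summable.tsum_le_tsum (fun T => ?_)
    (summable_weight hd n (fun T => Mtree_nonneg (by norm_num) h1 h2 T)
      (fun T => Mtree_le_one (by norm_num) h1 h2 T))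
    (summable_weight hd n (fun T => Mtree_nonneg (by norm_num) h3 h4 T)
      (fun T => Mtree_le_one (by norm_num) h3 h4 T))
  exact mul_le_mul_of_nonneg_left (DE.Mtree_mono h0 h hh T) (poissonWeight_nonneg hd T)

/-- regular trees of degree at least five -/
theorem dary_small {κ : ℝ} (h0 : 0 < κ) {d : ℕ} (hd : 5 ≤ d) (h : d * κ ^ 2 ≤ 1) :
    ∃ n, Mtree 3 (-κ) (dary d n) ≤ 23 / 1000 := by
  have hd5 : (5 : ℝ) ≤ d := by exact_mod_cast hd
  have hd0 : (0 : ℝ) < d := by linarith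
  set κ0 : ℝ := Real.sqrt (1 / d) with hκ0
  have hsq : κ0 ^ 2 = 1 / d := Real.sq_sqrt (by positivity)
  have hpos : 0 < κ0 := Real.sqrt_pos.2 (by positivity)
  have h1 : d * κ0 ^ 2 = 1 := by
    rw [hsq]
    field_simp
  have hle : κ ≤ κ0 := by
    refine le_of_sq_le_sq ?_ hpos.le
    have : d * κ ^ 2 ≤ d * κ0 ^ 2 := by rw [h1]; exact h
    exact le_of_mul_le_mul_left this hd0
  have hh : κ0 ≤ 1 / 2 := by
    refine le_of_sq_le_sq ?_ (by norm_num)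
    rw [hsq, div_le_iff₀ hd0]
    linarith
  obtain ⟨n, hn⟩ := GD.gd_dary hd hpos h1
  exact ⟨n, (DE.Mtree_mono h0.le hle hh _).trans hn⟩

/-- Poisson trees, away from `κ = 1/2` -/
theorem poisson_small {κ : ℝ} (h0 : 0 < κ) {d : ℝ} (hd : (25 / 12) ^ 2 < d)
    (h : d * κ ^ 2 ≤ 1) : ∃ n, pM κ d n ≤ 43 / 1000 := by
  have hd0 : (0 : ℝ) < d := by nlinarith
  set κ0 : ℝ := Real.sqrt (1 / d) with hκ0
  have hsq : κ0 ^ 2 = 1 / d := Real.sq_sqrt (by positivity)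
  have hpos : 0 < κ0 := Real.sqrt_pos.2 (by positivity)
  have h1 : d * κ0 ^ 2 = 1 := by
    rw [hsq]
    field_simp
  have hle : κ ≤ κ0 := by
    refine le_of_sq_le_sq ?_ hpos.le
    have : d * κ ^ 2 ≤ d * κ0 ^ 2 := by rw [h1]; exact h
    exact le_of_mul_le_mul_left this hd0
  have hh : κ0 < 12 / 25 := by
    refine lt_of_pow_lt_pow_left₀ 2 (by norm_num) ?_
    rw [hsq, div_lt_iff₀ hd0]
    nlinarith
  obtain ⟨n, hn⟩ := GDP.gd_poisson' hpos hh h1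
  exact ⟨n, (pM_mono h0.le hle (hh.le.trans (by norm_num)) hd0.le n).trans hn⟩

/-- reduction of the Poisson case to parameters near `1/2` -/
theorem poisson_all {m : ℝ} (hm : 43 / 1000 ≤ m)
    (P : ∀ κ d : ℝ, 12 / 25 ≤ κ → κ ≤ 1 / 2 → 0 < d → d * κ ^ 2 ≤ 1 → ∃ n, pM κ d n ≤ m)
    {κ d : ℝ} (h0 : 0 < κ) (hκ : κ ≤ 1 / 2) (hd : 0 < d) (h : d * κ ^ 2 ≤ 1) :
    ∃ n, pM κ d n ≤ m := by
  rcases lt_or_ge ((25 / 12 : ℝ) ^ 2) d with hc | hc
  · obtain ⟨n, hn⟩ := poisson_small h0 hc h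
    exact ⟨n, hn.trans hm⟩
  · -- raise `κ` to `min (1 / 2) (1 / √d)`
    set s : ℝ := Real.sqrt (1 / d) with hs
    have hsq : s ^ 2 = 1 / d := Real.sq_sqrt (by positivity)
    have hpos : 0 < s := Real.sqrt_pos.2 (by positivity)
    have h1 : d * s ^ 2 = 1 := by
      rw [hsq]
      field_simp
    have hle : κ ≤ s := by
      refine le_of_sq_le_sq ?_ hpos.le
      have : d * κ ^ 2 ≤ d * s ^ 2 := by rw [h1]; exact h
      exact le_of_mul_le_mul_left this hd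
    have hs2 : 12 / 25 ≤ s := by
      refine le_of_sq_le_sq ?_ hpos.le
      rw [hsq, le_div_iff₀ hd]
      nlinarith
    obtain ⟨n, hn⟩ := P (min (1 / 2) s) d (le_min (by norm_num) hs2) (min_le_left _ _) hd (by
      have : min (1 / 2) s ^ 2 ≤ s ^ 2 :=
        pow_le_pow_left₀ (le_min (by norm_num) hpos.le) (min_le_right _ _) 2
      calc d * min (1 / 2) s ^ 2 ≤ d * s ^ 2 := by gcongr
        _ = 1 := h1
        _ ≤ 1 := le_rfl)
    exact ⟨n, (pM_mono h0.le (le_min hκ hle) (min_le_left _ _) hd.le n).trans hn⟩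

/-- The threshold for three states and negative parameter from its ingredients. -/
theorem threshold_neg {mR mP : ℝ} (hmR : 23 / 1000 ≤ mR) (hmP : 43 / 1000 ≤ mP)
    (R : ∀ κ : ℝ, 0 < κ → κ ≤ 1 / 2 → ∀ d : ℕ, 2 ≤ d → d ≤ 4 → d * κ ^ 2 ≤ 1 →
      ∃ n, Mtree 3 (-κ) (dary d n) ≤ mR)
    (P : ∀ κ d : ℝ, 12 / 25 ≤ κ → κ ≤ 1 / 2 → 0 < d → d * κ ^ 2 ≤ 1 → ∃ n, pM κ d n ≤ mP)
    (LR : ∀ κ : ℝ, 0 < κ → κ ≤ 1 / 2 → ∀ d : ℕ, 2 ≤ d → d * κ ^ 2 ≤ 1 →
      (∃ n, Mtree 3 (-κ) (dary d n) ≤ mR) →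
      Tendsto (fun n => Mtree 3 (-κ) (dary d n)) atTop (𝓝 0))
    (LP : ∀ κ d : ℝ, 0 < κ → κ ≤ 1 / 2 → 0 < d → d * κ ^ 2 ≤ 1 → (∃ n, pM κ d n ≤ mP) →
      Tendsto (pM κ d) atTop (𝓝 0))
    (lam : ℝ) (h1 : -1 / 2 ≤ lam) (h2 : lam < 0) :
    (∀ d : ℕ, 2 ≤ d →
      (Reconstruction (aDary 3 lam d) ↔ 1 < (d : ℝ) * lam ^ 2) ∧
      (Nonreconstruction (aDary 3 lam d) ↔ (d : ℝ) * lam ^ 2 ≤ 1)) ∧
    (∀ d : ℝ, 0 < d →
      (Reconstruction (aPoisson 3 lam d) ↔ 1 < d * lam ^ 2) ∧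
      (Nonreconstruction (aPoisson 3 lam d) ↔ d * lam ^ 2 ≤ 1)) := by
  obtain ⟨κ, rfl⟩ : ∃ κ, lam = -κ := ⟨-lam, by ring⟩
  have h0 : 0 < κ := by linarith
  have hκ : κ ≤ 1 / 2 := by linarith
  obtain ⟨k1, k2⟩ := kap_facts h0.le hκ
  have e : (-κ) ^ 2 = κ ^ 2 := by ring
  have aux : ∀ (a : ℕ → ℝ) (t : ℝ), (1 < t → Reconstruction a) → (t ≤ 1 → Nonreconstruction a) →
      (Reconstruction a ↔ 1 < t) ∧ (Nonreconstruction a ↔ t ≤ 1) := by
    intro a t hR hN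
    refine ⟨⟨fun h => ?_, hR⟩, ⟨fun h => ?_, hN⟩⟩
    · by_contra hcon
      exact not_reconstruction_of_non (hN (not_lt.1 hcon)) h
    · by_contra hcon
      exact not_reconstruction_of_non h (hR (not_le.1 hcon))
  constructor
  · intro d hd
    refine aux _ _ (reconstruction_dary (by norm_num) k1 k2) fun h => ?_
    rw [e] at h
    refine nonrec_dary h0.le hκ d (LR κ h0 hκ d hd h ?_)
    rcases Nat.lt_or_ge d 5 with h5 | h5
    · exact R κ h0 hκ d hd (by omega) h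
    · obtain ⟨n, hn⟩ := dary_small h0 h5 h
      exact ⟨n, hn.trans hmR⟩
  · intro d hd
    refine aux _ _ (reconstruction_poisson (by norm_num) k1 k2 hd) fun h => ?_
    rw [e] at h
    exact nonrec_poisson h0.le hκ hd.le (LP κ d h0 hκ hd h (poisson_all hmP P h0 hκ hd h))

end Vale.Agent.P154.Neg
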