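import Vale.Agent.P154.Neg.Pieces
import Vale.Agent.P154.LocCrit

/-!
# Three states, negative parameter: the full threshold from the two density evolution inputs
-/

namespace Vale.Agent.P154.Neg

open Finset Filter Topology Vale.Agent.P154 Vale.Agent.P154.Up

/-- Poisson trees near `κ = 1 / 2`, given a bound on the critical line -/
theorem pois_high {κ : ℝ} (h0 : 0 < κ) (h1 : κ ≤ 1 / 2) {d : ℝ} (hd : 0 < d)
    (h : d * κ ^ 2 ≤ 1)
    (P : ∃ n, ∑' T : GTree n, poissonWeight (1 / κ ^ 2) T * Mtree 3 (-κ) T ≤ 7 / 100) :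
    Nonreconstruction (aPoisson 3 (-κ) d) := by
  obtain ⟨k1, k2⟩ := kapf h0.le h1
  obtain ⟨n, hn⟩ := P
  have hκ2 : 0 < κ ^ 2 := by positivity
  have hdd : d ≤ 1 / κ ^ 2 := by rwa [le_div_iff₀ hκ2]
  have ht := Loc.loc_poisson_crit (d := 1 / κ ^ 2) (by positivity) h0 h1 (by field_simp) hn
  refine Loc.nonrec_poisson (by norm_num) k1 k2 hd.le ?_
  refine squeeze_zero (fun m => tsum_nonneg fun T => mul_nonneg (poissonWeight_nonneg hd.le T)
    (Mtree_nonneg (by norm_num) k1 k2 T)) (fun m => ?_) ht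
  exact DE.Mtree_pois_mono h0.le le_rfl h1 hd.le hdd m

/-- Three states, negative parameter, both tree models. -/
theorem neg_full
    (R : ∀ κ : ℝ, 0 < κ → κ ≤ 1 / 2 → ∀ d : ℕ, 2 ≤ d → d ≤ 4 →
      ∃ n, Mtree 3 (-κ) (dary d n) ≤ 7 / 100)
    (P : ∀ κ : ℝ, 12 / 25 ≤ κ → κ ≤ 1 / 2 →
      ∃ n, ∑' T : GTree n, poissonWeight (1 / κ ^ 2) T * Mtree 3 (-κ) T ≤ 7 / 100)
    (lam : ℝ) (h1 : -(1 / 2) ≤ lam) (h2 : lam < 0) :
    (∀ d : ℕ, 2 ≤ d →
      (Reconstruction (aDary 3 lam d) ↔ 1 < (d : ℝ) * lam ^ 2) ∧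
      (Nonreconstruction (aDary 3 lam d) ↔ (d : ℝ) * lam ^ 2 ≤ 1)) ∧
    (∀ d : ℝ, 0 < d →
      (Reconstruction (aPoisson 3 lam d) ↔ 1 < d * lam ^ 2) ∧
      (Nonreconstruction (aPoisson 3 lam d) ↔ d * lam ^ 2 ≤ 1)) := by
  obtain ⟨κ, rfl⟩ : ∃ κ, lam = -κ := ⟨-lam, by ring⟩
  have h0 : 0 < κ := by linarith
  have hκ : κ ≤ 1 / 2 := by linarith
  obtain ⟨k1, k2⟩ := kapf h0.le hκ
  have e : (-κ) ^ 2 = κ ^ 2 := by ring
  constructor
  · intro d hd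
    refine iffs (reconstruction_dary (by norm_num) k1 k2) fun h => ?_
    rw [e] at h
    rcases Nat.lt_or_ge d 5 with h5 | h5
    · obtain ⟨n, hn⟩ := R κ h0 hκ d hd (by omega)
      exact reg_small h0 hκ hd (by omega) hn
    · exact reg_large h0 hκ h5 h
  · intro d hd
    refine iffs (reconstruction_poisson (by norm_num) k1 k2 hd) fun h => ?_
    rw [e] at h
    rcases lt_or_ge κ (12 / 25) with hc | hc
    · exact pois_main h0 hc hd h
    · exact pois_high h0 hκ hd h (P κ hc hκ)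

/-- Poisson trees from the decay of the second moment -/
theorem pois_of_tendsto {κ : ℝ} (h0 : 0 < κ) (h1 : κ ≤ 1 / 2) {d : ℝ} (hd : 0 < d)
    (ht : Tendsto (fun n => ∑' T : GTree n, poissonWeight d T * Mtree 3 (-κ) T) atTop (𝓝 0)) :
    Nonreconstruction (aPoisson 3 (-κ) d) := by
  obtain ⟨k1, k2⟩ := kapf h0.le h1
  exact Loc.nonrec_poisson (by norm_num) k1 k2 hd.le ht

/-- Three states, negative parameter, both tree models. -/
theorem neg_full'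
    (R : ∀ κ : ℝ, 0 < κ → κ ≤ 1 / 2 → ∀ d : ℕ, 2 ≤ d → d ≤ 4 →
      ∃ n, Mtree 3 (-κ) (dary d n) ≤ 7 / 100)
    (P : ∀ κ d : ℝ, 12 / 25 ≤ κ → κ ≤ 1 / 2 → 0 < d → d * κ ^ 2 ≤ 1 →
      Tendsto (fun n => ∑' T : GTree n, poissonWeight d T * Mtree 3 (-κ) T) atTop (𝓝 0))
    (lam : ℝ) (h1 : -(1 / 2) ≤ lam) (h2 : lam < 0) :
    (∀ d : ℕ, 2 ≤ d →
      (Reconstruction (aDary 3 lam d) ↔ 1 < (d : ℝ) * lam ^ 2) ∧
      (Nonreconstruction (aDary 3 lam d) ↔ (d : ℝ) * lam ^ 2 ≤ 1)) ∧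
    (∀ d : ℝ, 0 < d →
      (Reconstruction (aPoisson 3 lam d) ↔ 1 < d * lam ^ 2) ∧
      (Nonreconstruction (aPoisson 3 lam d) ↔ d * lam ^ 2 ≤ 1)) := by
  obtain ⟨κ, rfl⟩ : ∃ κ, lam = -κ := ⟨-lam, by ring⟩
  have h0 : 0 < κ := by linarith
  have hκ : κ ≤ 1 / 2 := by linarith
  obtain ⟨k1, k2⟩ := kapf h0.le hκ
  have e : (-κ) ^ 2 = κ ^ 2 := by ring
  constructor
  · intro d hd
    refine iffs (reconstruction_dary (by norm_num) k1 k2) fun h => ?_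
    rw [e] at h
    rcases Nat.lt_or_ge d 5 with h5 | h5
    · obtain ⟨n, hn⟩ := R κ h0 hκ d hd (by omega)
      exact reg_small h0 hκ hd (by omega) hn
    · exact reg_large h0 hκ h5 h
  · intro d hd
    refine iffs (reconstruction_poisson (by norm_num) k1 k2 hd) fun h => ?_
    rw [e] at h
    rcases lt_or_ge κ (12 / 25) with hc | hc
    · exact pois_main h0 hc hd h
    · exact pois_of_tendsto h0 hκ hd (P κ d hc hκ hd h)

end Vale.Agent.P154.Neg
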