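import Vale.Agent.P154.DE.Mono2
import Vale.Agent.P154.GDP.Main
import Vale.Agent.P154.LocPois
import Vale.Agent.P154.Recon

/-!
# Three states, negative parameter: the parts proved by descent and local stability
-/

namespace Vale.Agent.P154.Neg

open Finset Filter Topology Vale.Agent.P154 Vale.Agent.P154.Up

theorem kapf {κ : ℝ} (h0 : 0 ≤ κ) (h : κ ≤ 1 / 2) :
    -1 / (((3 : ℕ) : ℝ) - 1) ≤ -κ ∧ -κ ≤ 1 := by
  constructor
  · push_cast
    rw [div_le_iff₀ (by norm_num)]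
    linarith
  · linarith

/-- regular trees of degree at least five, at or below the threshold -/
theorem reg_large {κ : ℝ} (h0 : 0 < κ) (h1 : κ ≤ 1 / 2) {d : ℕ} (hd : 5 ≤ d)
    (h : d * κ ^ 2 ≤ 1) : Nonreconstruction (aDary 3 (-κ) d) := by
  have hd5 : (5 : ℝ) ≤ d := by exact_mod_cast hd
  have hd0 : (0 : ℝ) < d := by linarith
  set κ0 : ℝ := Real.sqrt (1 / d) with hκ0
  have hsq : κ0 ^ 2 = 1 / d := Real.sq_sqrt (by positivity)
  have hpos : 0 < κ0 := Real.sqrt_pos.2 (by positivity)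
  have h2 : d * κ0 ^ 2 = 1 := by
    rw [hsq]
    field_simp
  have hle : κ ≤ κ0 := by
    refine le_of_sq_le_sq ?_ hpos.le
    have : d * κ ^ 2 ≤ d * κ0 ^ 2 := by rw [h2]; exact h
    exact le_of_mul_le_mul_left this hd0
  have hh : κ0 ≤ 1 / 2 := by
    refine le_of_sq_le_sq ?_ (by norm_num)
    rw [hsq, div_le_iff₀ hd0]
    linarith
  obtain ⟨n, hn⟩ := GD.gd_dary hd hpos h2
  obtain ⟨k1, k2⟩ := kapf h0.le h1
  exact Loc.nonrec_dary (by norm_num) k1 k2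
    (Loc.loc_dary_large hd h0 h1 h ((DE.Mtree_dary_mono h0.le hle hh d n).trans hn))

/-- regular trees of degree at most four, given a bound at some depth -/
theorem reg_small {κ : ℝ} (h0 : 0 < κ) (h1 : κ ≤ 1 / 2) {d : ℕ} (hd2 : 2 ≤ d) (hd : d ≤ 4)
    {n : ℕ} (hn : Mtree 3 (-κ) (dary d n) ≤ 7 / 100) : Nonreconstruction (aDary 3 (-κ) d) := by
  obtain ⟨k1, k2⟩ := kapf h0.le h1
  exact Loc.nonrec_dary (by norm_num) k1 k2 (Loc.loc_dary_small hd2 hd h0 h1 hn)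

/-- Poisson trees, given a bound at some depth -/
theorem pois_of_bound {κ : ℝ} (h0 : 0 < κ) (h1 : κ ≤ 1 / 2) {d : ℝ} (hd : 0 < d)
    (h : d * κ ^ 2 ≤ 1)
    (hn : ∃ n, ∑' T : GTree n, poissonWeight d T * Mtree 3 (-κ) T ≤ 43 / 1000) :
    Nonreconstruction (aPoisson 3 (-κ) d) := by
  obtain ⟨k1, k2⟩ := kapf h0.le h1
  obtain ⟨n, hn⟩ := hn
  exact Loc.nonrec_poisson (by norm_num) k1 k2 hd.le (Loc.loc_poisson hd h0 h1 h hn)

/-- Poisson trees, `κ < 12 / 25`, at or below the threshold -/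
theorem pois_main {κ : ℝ} (h0 : 0 < κ) (h1 : κ < 12 / 25) {d : ℝ} (hd : 0 < d)
    (h : d * κ ^ 2 ≤ 1) : Nonreconstruction (aPoisson 3 (-κ) d) := by
  have h1' : κ ≤ 1 / 2 := by linarith
  have hκ2 : 0 < κ ^ 2 := by positivity
  obtain ⟨n, hn⟩ := GDP.gd_poisson' h0 h1 (d := 1 / κ ^ 2) (by field_simp)
  have hdd : d ≤ 1 / κ ^ 2 := by rwa [le_div_iff₀ hκ2]
  exact pois_of_bound h0 h1' hd h
    ⟨n, (DE.Mtree_pois_mono h0.le le_rfl h1' hd.le hdd n).trans hn⟩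

theorem iffs {a : ℕ → ℝ} {t : ℝ} (hR : 1 < t → Reconstruction a)
    (hN : t ≤ 1 → Nonreconstruction a) :
    (Reconstruction a ↔ 1 < t) ∧ (Nonreconstruction a ↔ t ≤ 1) := by
  refine ⟨⟨fun h => ?_, hR⟩, ⟨fun h => ?_, hN⟩⟩
  · by_contra hcon
    exact not_reconstruction_of_non (hN (not_lt.1 hcon)) h
  · by_contra hcon
    exact not_reconstruction_of_non h (hR (not_le.1 hcon))

end Vale.Agent.P154.Neg
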